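/-
Tingley's problem: separable reduction.  A surjective isometry of the unit spheres restricts to surjective
isometries between the unit spheres of closed separable subspaces `F`, `G`, with `F` inside any rich family of
separable subspaces of `X`, containing any given separable set.  So Tingley's problem for `X` reduces to
the separable subspaces in such a family.
-/
import Vale.Agent.Lib.P084.MSum.Main

set_option linter.unusedSectionVars false

namespace Vale.Agent.Lib.P084.SepRed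

open Vale.Agent.Lib.P084.UC Vale.Agent.Lib.P084.MSum
open TopologicalSpace Metric

universe u v

variable {X : Type u} {Y : Type v} [NormedAddCommGroup X] [NormedSpace ℝ X] [NormedAddCommGroup Y]
  [NormedSpace ℝ Y]

theorem unit_of_ne {y : X} (hy : y ≠ 0) : ‖‖y‖⁻¹ • y‖ = 1 := by
  rw [norm_smul, norm_inv, norm_norm, inv_mul_cancel₀ (norm_ne_zero_iff.mpr hy)]

/-- A unit vector in the closure of a subspace is a limit of unit vectors of the subspace. -/
theorem exists_unit_near {U : Submodule ℝ X} {x : X} (hx : ‖x‖ = 1) (hc : x ∈ closure (U : Set X))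
    {ε : ℝ} (hε : 0 < ε) : ∃ u ∈ U, ‖u‖ = 1 ∧ ‖x - u‖ < ε := by
  obtain ⟨w, hw, hd⟩ := Metric.mem_closure_iff.1 hc (min (ε / 2) (1 / 2)) (by positivity)
  rw [dist_eq_norm] at hd
  have hd1 : ‖x - w‖ < ε / 2 := lt_of_lt_of_le hd (min_le_left _ _)
  have hd2 : ‖x - w‖ < 1 / 2 := lt_of_lt_of_le hd (min_le_right _ _)
  have hw1 : |‖w‖ - 1| ≤ ‖x - w‖ := by
    have := abs_norm_sub_norm_le w x
    rw [hx, norm_sub_rev] at this
    exact this
  have hw0 : 0 < ‖w‖ := by
    have := (abs_le.1 hw1).1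
    linarith
  refine ⟨‖w‖⁻¹ • w, U.smul_mem _ hw, unit_of_ne (norm_pos_iff.1 hw0), ?_⟩
  have e : x - ‖w‖⁻¹ • w = (x - w) + (1 - ‖w‖⁻¹) • w := by module
  have e2 : ‖(1 - ‖w‖⁻¹) • w‖ = |‖w‖ - 1| := by
    rw [norm_smul, Real.norm_eq_abs, ← abs_norm w, ← abs_mul]
    congr 1
    rw [abs_norm w]
    field_simp
  rw [e]
  calc _ ≤ ‖x - w‖ + ‖(1 - ‖w‖⁻¹) • w‖ := norm_add_le _ _
    _ = ‖x - w‖ + |‖w‖ - 1| := by rw [e2]
    _ < ε := by linarith

/-- A pair of subspaces whose unit spheres correspond under `f`. -/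
structure Pair (f : X → Y) (F : Submodule ℝ X) (G : Submodule ℝ Y) : Prop where
  map_mem : ∀ x ∈ F, ‖x‖ = 1 → f x ∈ G
  surj : ∀ y ∈ G, ‖y‖ = 1 → ∃ x ∈ F, ‖x‖ = 1 ∧ f x = y

/-- The restriction of `f` to a pair. -/
noncomputable def restr (f : X → Y) (F : Submodule ℝ X) (G : Submodule ℝ Y) [∀ x : F, Decidable (f x ∈ G)]
    (x : F) : G := if h : f x ∈ G then ⟨f x, h⟩ else 0

theorem restr_coe {f : X → Y} {F : Submodule ℝ X} {G : Submodule ℝ Y} (hp : Pair f F G)
    [∀ x : F, Decidable (f x ∈ G)] {x : F} (hx : ‖x‖ = 1) :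
    (restr f F G x : Y) = f x := by
  have h : f x ∈ G := hp.map_mem x x.2 (by simpa using hx)
  simp [restr, h]

theorem restr_isSphereIso {f : X → Y} (hf : IsSphereIso f) {F : Submodule ℝ X} {G : Submodule ℝ Y}
    (hp : Pair f F G) [∀ x : F, Decidable (f x ∈ G)] : IsSphereIso (restr f F G) := by
  refine ⟨fun x hx => ?_, fun x y hx hy => ?_, fun z hz => ?_⟩
  · rw [← Submodule.norm_coe, restr_coe hp hx]
    exact hf.norm_eq _ (by simpa using hx)
  · rw [← Submodule.norm_coe, ← Submodule.norm_coe (x - y), Submodule.coe_sub, Submodule.coe_sub,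
      restr_coe hp hx, restr_coe hp hy]
    exact hf.iso _ _ (by simpa using hx) (by simpa using hy)
  · obtain ⟨x, hxF, hx, hfx⟩ := hp.surj z z.2 (by simpa using hz)
    refine ⟨⟨x, hxF⟩, by simpa using hx, Subtype.ext ?_⟩
    rw [restr_coe hp (by simpa using hx)]
    exact hfx

/-- The image of the unit sphere of a separable set is separable. -/
theorem isSeparable_image {f : X → Y} (hf : IsSphereIso f) {A : Set X} (hA : IsSeparable A)
    (hA1 : ∀ x ∈ A, ‖x‖ = 1) : IsSeparable (f '' A) := by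
  have hs : SeparableSpace A := hA.separableSpace
  have hc : Continuous (fun x : A => f x) := by
    refine LipschitzWith.continuous (K := 1) (LipschitzWith.of_dist_le_mul fun x y => ?_)
    rw [dist_eq_norm, hf.iso _ _ (hA1 _ x.2) (hA1 _ y.2), Subtype.dist_eq, dist_eq_norm]
    simp
  have := isSeparable_range hc
  rwa [show Set.range (fun x : A => f x) = f '' A by
    ext y; simp [Set.mem_image, Set.mem_range]] at this

/-- The closed span of the image of the unit sphere of a separable subspace. -/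
noncomputable def imageSpan (f : X → Y) (F : Submodule ℝ X) : Submodule ℝ Y :=
  (Submodule.span ℝ (f '' {x | x ∈ F ∧ ‖x‖ = 1})).topologicalClosure

theorem isSeparable_imageSpan {f : X → Y} (hf : IsSphereIso f) {F : Submodule ℝ X}
    (hF : IsSeparable (F : Set X)) : IsSeparable (imageSpan f F : Set Y) := by
  have h1 : IsSeparable {x | x ∈ F ∧ ‖x‖ = 1} := hF.mono fun x hx => hx.1
  have h2 := isSeparable_image hf h1 fun x hx => hx.2
  have h3 := h2.span (R := ℝ)
  simpa [imageSpan, Submodule.topologicalClosure_coe] using h3.closure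

/-- Monotone sequences: a vector in the supremum belongs to a term. -/
theorem mem_iSup_mono {E : Type*} [AddCommGroup E] [Module ℝ E] {F : ℕ → Submodule ℝ E}
    (hm : Monotone F) {x : E} (hx : x ∈ ⨆ n, F n) : ∃ n, x ∈ F n :=
  (Submodule.mem_iSup_of_directed F hm.directed_le).1 hx

theorem isSeparable_closure_iSup {E : Type*} [NormedAddCommGroup E] [NormedSpace ℝ E]
    {F : ℕ → Submodule ℝ E} (hF : ∀ n, IsSeparable (F n : Set E)) :
    IsSeparable ((⨆ n, F n).topologicalClosure : Set E) := by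
  have h1 : IsSeparable (⋃ n, (F n : Set E)) := IsSeparable.iUnion hF
  have h2 := h1.span (R := ℝ)
  have e : Submodule.span ℝ (⋃ n, (F n : Set E)) = ⨆ n, F n := by
    rw [Submodule.span_iUnion]
    simp
  rw [e] at h2
  simpa [Submodule.topologicalClosure_coe] using h2.closure

/-- **Closing off.** -/
theorem exists_pair {f : X → Y} (hf : IsSphereIso f) (P : Submodule ℝ X → Prop)
    (hP1 : ∀ A : Set X, IsSeparable A → ∃ F : Submodule ℝ X, P F ∧ A ⊆ F ∧ IsSeparable (F : Set X))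
    (hP2 : ∀ F : ℕ → Submodule ℝ X, Monotone F → (∀ n, P (F n)) → (∀ n, IsSeparable (F n : Set X)) →
      P (⨆ n, F n).topologicalClosure)
    {A : Set X} (hA : IsSeparable A) :
    ∃ (F : Submodule ℝ X) (G : Submodule ℝ Y), P F ∧ A ⊆ F ∧ IsSeparable (F : Set X) ∧
      IsClosed (F : Set X) ∧ IsSeparable (G : Set Y) ∧ IsClosed (G : Set Y) ∧ Pair f F G := by
  classical
  obtain ⟨g, hg⟩ := hf.exists_inv
  -- the state
  let St := {F : Submodule ℝ X // P F ∧ IsSeparable (F : Set X)}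
  have step : ∀ s : St, ∃ t : St, (s.1 : Set X) ⊆ t.1 ∧
      ∀ y ∈ imageSpan f s.1, ‖y‖ = 1 → g y ∈ t.1 := by
    intro s
    have h1 : IsSeparable ({y | y ∈ imageSpan f s.1 ∧ ‖y‖ = 1} : Set Y) :=
      (isSeparable_imageSpan hf s.2.2).mono fun y hy => hy.1
    have hginv : IsSphereIso g := by
      refine ⟨fun y hy => (hg y hy).1, fun y z hy hz => ?_, fun x hx => ⟨f x, hf.norm_eq x hx, ?_⟩⟩
      · have := hf.iso _ _ (hg y hy).1 (hg z hz).1
        rw [(hg y hy).2, (hg z hz).2] at this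
        exact this.symm
      · have h2 := hg (f x) (hf.norm_eq x hx)
        have h3 := hf.iso _ _ h2.1 hx
        rw [h2.2, sub_self, norm_zero] at h3
        exact (sub_eq_zero.1 (norm_eq_zero.1 h3.symm))
    have h2 := isSeparable_image hginv h1 fun y hy => hy.2
    obtain ⟨F, hP, hsub, hsep⟩ := hP1 _ (s.2.2.union h2)
    refine ⟨⟨F, hP, hsep⟩, fun x hx => hsub (Or.inl hx), fun y hy hy1 => ?_⟩
    exact hsub (Or.inr ⟨y, ⟨hy, hy1⟩, rfl⟩)
  choose next hnext1 hnext2 using step
  obtain ⟨F0, hP0, hA0, hsep0⟩ := hP1 A hA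
  let seq : ℕ → St := fun n => Nat.rec ⟨F0, hP0, hsep0⟩ (fun _ s => next s) n
  have hseq : ∀ n, seq (n + 1) = next (seq n) := fun n => rfl
  have hmono : Monotone fun n => (seq n).1 := monotone_nat_of_le_succ fun n x hx => by
    rw [hseq]
    exact hnext1 (seq n) hx
  let Gs : ℕ → Submodule ℝ Y := fun n => imageSpan f (seq n).1
  have hGmono : Monotone Gs := by
    intro m n hmn
    refine Submodule.topologicalClosure_mono (Submodule.span_mono ?_)
    rintro y ⟨x, ⟨hx, hx1⟩, rfl⟩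
    exact ⟨x, ⟨hmono hmn hx, hx1⟩, rfl⟩
  refine ⟨(⨆ n, (seq n).1).topologicalClosure, (⨆ n, Gs n).topologicalClosure,
    hP2 _ hmono (fun n => (seq n).2.1) (fun n => (seq n).2.2), ?_,
    isSeparable_closure_iSup fun n => (seq n).2.2, Submodule.isClosed_topologicalClosure _,
    isSeparable_closure_iSup fun n => isSeparable_imageSpan hf (seq n).2.2,
    Submodule.isClosed_topologicalClosure _, ⟨?_, ?_⟩⟩
  · intro x hx
    refine Submodule.le_topologicalClosure _ ?_
    exact Submodule.mem_iSup_of_mem 0 (hA0 hx)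
  · -- forward
    intro x hx hx1
    refine Metric.mem_closure_iff.2 fun ε hε => ?_
    obtain ⟨u, hu, hu1, hd⟩ := exists_unit_near hx1 hx hε
    obtain ⟨n, hn⟩ := mem_iSup_mono hmono hu
    refine ⟨f u, ?_, ?_⟩
    · refine Submodule.mem_iSup_of_mem n ?_
      refine Submodule.le_topologicalClosure _ (Submodule.subset_span ?_)
      exact ⟨u, ⟨hn, hu1⟩, rfl⟩
    · rw [dist_eq_norm, hf.iso _ _ hx1 hu1]
      exact hd
  · -- backward
    intro y hy hy1
    refine ⟨g y, ?_, (hg y hy1).1, (hg y hy1).2⟩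
    refine Metric.mem_closure_iff.2 fun ε hε => ?_
    obtain ⟨v, hv, hv1, hd⟩ := exists_unit_near hy1 hy hε
    obtain ⟨n, hn⟩ := mem_iSup_mono hGmono hv
    refine ⟨g v, ?_, ?_⟩
    · refine Submodule.mem_iSup_of_mem (n + 1) ?_
      rw [hseq]
      exact hnext2 (seq n) v hn hv1
    · rw [dist_eq_norm]
      have := hf.iso _ _ (hg y hy1).1 (hg v hv1).1
      rw [(hg y hy1).2, (hg v hv1).2] at this
      rw [← this]
      exact hd

/-- On a pair, the radial extension agrees with the extension of the restriction. -/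
theorem rad_eq_of_pair {f : X → Y} {F : Submodule ℝ X} {G : Submodule ℝ Y} (hp : Pair f F G)
    [∀ x : F, Decidable (f x ∈ G)] {T : F ≃ₗᵢ[ℝ] G}
    (hT : ∀ x, ‖x‖ = 1 → T x = restr f F G x) (x : F) : rad f x = T x := by
  by_cases hx : x = 0
  · subst hx
    simp [rad_zero]
  have hx0 : (x : X) ≠ 0 := by simpa using hx
  have hu : ‖‖x‖⁻¹ • x‖ = 1 := unit_of_ne hx
  have h1 := hT _ hu
  have h2 := restr_coe hp hu
  rw [← h1] at h2
  rw [map_smul] at h2
  unfold rad
  have e : (‖(x : X)‖⁻¹ • (x : X)) = ((‖x‖⁻¹ • x : F) : X) := by simp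
  rw [e, ← h2]
  simp only [Submodule.coe_smul, Submodule.norm_coe]
  rw [smul_smul, mul_inv_cancel₀ (norm_ne_zero_iff.mpr hx), one_smul]

/-- **The separable reduction for a rich family.** -/
theorem extends_of_rich {f : X → Y} (hf : IsSphereIso f) (P : Submodule ℝ X → Prop)
    (hP1 : ∀ A : Set X, IsSeparable A → ∃ F : Submodule ℝ X, P F ∧ A ⊆ F ∧ IsSeparable (F : Set X))
    (hP2 : ∀ F : ℕ → Submodule ℝ X, Monotone F → (∀ n, P (F n)) → (∀ n, IsSeparable (F n : Set X)) →
      P (⨆ n, F n).topologicalClosure)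
    (hQ : ∀ F : Submodule ℝ X, P F → IsSeparable (F : Set X) → IsClosed (F : Set X) →
      ∀ G : Submodule ℝ Y, IsSeparable (G : Set Y) → IsClosed (G : Set Y) →
      ∀ φ : F → G, IsSphereIso φ → ∃ T : F ≃ₗᵢ[ℝ] G, ∀ x, ‖x‖ = 1 → T x = φ x) :
    ∃ T : X ≃ₗᵢ[ℝ] Y, ∀ x, ‖x‖ = 1 → T x = f x := by
  classical
  have key : ∀ A : Set X, IsSeparable A → ∃ (F : Submodule ℝ X) (G : Submodule ℝ Y) (T : F ≃ₗᵢ[ℝ] G),
      A ⊆ F ∧ ∀ x : F, rad f x = T x := by
    intro A hA
    obtain ⟨F, G, hPF, hAF, hsF, hcF, hsG, hcG, hp⟩ := exists_pair hf P hP1 hP2 hA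
    obtain ⟨T, hT⟩ := hQ F hPF hsF hcF G hsG hcG _ (restr_isSphereIso hf hp)
    exact ⟨F, G, T, hAF, rad_eq_of_pair hp hT⟩
  have hadd : ∀ x y, rad f (x + y) = rad f x + rad f y := by
    intro x y
    obtain ⟨F, G, T, hA, hT⟩ := key {x, y} (Set.Countable.isSeparable (by simp))
    have hx : x ∈ F := hA (by simp)
    have hy : y ∈ F := hA (by simp)
    have h1 := hT ⟨x, hx⟩
    have h2 := hT ⟨y, hy⟩
    have h3 := hT (⟨x, hx⟩ + ⟨y, hy⟩)
    rw [map_add] at h3
    simp only [Submodule.coe_add] at h1 h2 h3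
    rw [h3, h1, h2]
  have hsmul : ∀ (r : ℝ) x, rad f (r • x) = r • rad f x := by
    intro r x
    obtain ⟨F, G, T, hA, hT⟩ := key {x} (Set.Countable.isSeparable (by simp))
    have hx : x ∈ F := hA (by simp)
    have h1 := hT ⟨x, hx⟩
    have h3 := hT (r • ⟨x, hx⟩)
    rw [map_smul] at h3
    simp only [Submodule.coe_smul] at h1 h3
    rw [h3, h1]
  have hnorm : ∀ x, ‖rad f x‖ = ‖x‖ := by
    intro x
    by_cases hx : x = 0
    · subst hx
      simp [rad_zero]
    unfold rad
    rw [norm_smul, norm_norm, hf.norm_eq _ (unit_of_ne hx), mul_one]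
  let L : X →ₗᵢ[ℝ] Y := ⟨⟨⟨rad f, hadd⟩, hsmul⟩, hnorm⟩
  have hsurj : Function.Surjective L := by
    intro y
    by_cases hy : y = 0
    · exact ⟨0, by subst hy; simp [L, rad_zero]⟩
    obtain ⟨x, hx, hfx⟩ := hf.surj _ (unit_of_ne hy)
    refine ⟨‖y‖ • x, ?_⟩
    change rad f (‖y‖ • x) = y
    rw [hsmul, rad_unit _ hx, hfx, smul_smul, mul_inv_cancel₀ (norm_ne_zero_iff.mpr hy), one_smul]
  refine ⟨LinearIsometryEquiv.ofSurjective L hsurj, fun x hx => ?_⟩
  change rad f x = f x
  exact rad_unit _ hx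

/-- **The separable reduction.** If all the surjective sphere isometries between closed separable
subspaces of `X` and of `Y` extend linearly, so does every surjective sphere isometry of `X` onto `Y`. -/
theorem extends_of_separable {f : X → Y} (hf : IsSphereIso f)
    (hQ : ∀ F : Submodule ℝ X, IsSeparable (F : Set X) → IsClosed (F : Set X) →
      ∀ G : Submodule ℝ Y, IsSeparable (G : Set Y) → IsClosed (G : Set Y) →
      ∀ φ : F → G, IsSphereIso φ → ∃ T : F ≃ₗᵢ[ℝ] G, ∀ x, ‖x‖ = 1 → T x = φ x) :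
    ∃ T : X ≃ₗᵢ[ℝ] Y, ∀ x, ‖x‖ = 1 → T x = f x := by
  refine extends_of_rich hf (fun _ => True) (fun A hA => ?_) (fun _ _ _ _ => trivial)
    (fun F _ hs hc => hQ F hs hc)
  refine ⟨(Submodule.span ℝ A), trivial, Submodule.subset_span, hA.span⟩

end Vale.Agent.Lib.P084.SepRed
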