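/-
Tingley's problem for `C(K, E)`, `K` any infinite compact Hausdorff space, `E` any nonzero real normed
space: reduction to the metrizable case through the rich family of subspaces of functions that factor
through a metrizable quotient of `K` and take values in a closed separable subspace of `E`.
-/
import Vale.Agent.Lib.P084.Defs
import Vale.Agent.Lib.P084.SepRed.Main
import Vale.Agent.Lib.P084.CK.Top

set_option linter.unusedSectionVars false

namespace Vale.Agent.Lib.P084.SepRed

open Vale.Agent.Lib.P084.UC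
open TopologicalSpace Metric

section Mem

variable {K : Type*} [TopologicalSpace K] [CompactSpace K] [T2Space K] {E : Type*}
  [NormedAddCommGroup E] [NormedSpace ℝ E]

/-- Functions with values in `V`, constant on the common fibres of the `A n`. -/
def mem (A : ℕ → C(K, E)) (V : Submodule ℝ E) : Submodule ℝ C(K, E) where
  carrier := {h | (∀ k, h k ∈ V) ∧ ∀ k k', (∀ n, A n k = A n k') → h k = h k'}
  add_mem' := by
    rintro a b ⟨ha, ha'⟩ ⟨hb, hb'⟩
    exact ⟨fun k => V.add_mem (ha k) (hb k), fun k k' h => by simp [ha' k k' h, hb' k k' h]⟩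
  zero_mem' := ⟨fun _ => V.zero_mem, fun _ _ _ => rfl⟩
  smul_mem' := by
    rintro c a ⟨ha, ha'⟩
    exact ⟨fun k => V.smul_mem c (ha k), fun k k' h => by simp [ha' k k' h]⟩

theorem mem_mem {A : ℕ → C(K, E)} {V : Submodule ℝ E} {h : C(K, E)} :
    h ∈ mem A V ↔ (∀ k, h k ∈ V) ∧ ∀ k k', (∀ n, A n k = A n k') → h k = h k' := Iff.rfl

theorem isClosed_mem {A : ℕ → C(K, E)} {V : Submodule ℝ E} (hV : IsClosed (V : Set E)) :
    IsClosed (mem A V : Set C(K, E)) := by
  have e : (mem A V : Set C(K, E)) = (⋂ k, {h : C(K, E) | h k ∈ (V : Set E)}) ∩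
      ⋂ k, ⋂ k', ⋂ (_ : ∀ n, A n k = A n k'), {h : C(K, E) | h k = h k'} := by
    ext h
    simp only [Set.mem_inter_iff, Set.mem_iInter, Set.mem_ofPred_eq]
    exact Iff.rfl
  rw [e]
  refine IsClosed.inter (isClosed_iInter fun k => hV.preimage (continuous_eval_const k))
    (isClosed_iInter fun k => isClosed_iInter fun k' => isClosed_iInter fun _ => ?_)
  exact isClosed_eq (continuous_eval_const k) (continuous_eval_const k')

theorem coord_mem {A : ℕ → C(K, E)} {V : Submodule ℝ E} (hA : ∀ n k, A n k ∈ V) (n : ℕ) :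
    A n ∈ mem A V := ⟨hA n, fun _ _ h => h n⟩

variable (A : ℕ → C(K, E)) (V : Submodule ℝ E) (hA : ∀ n k, A n k ∈ V)

/-- The coordinate map. -/
def coord : K → ℕ → V := fun k n => ⟨A n k, hA n k⟩

theorem continuous_coord : Continuous (coord A V hA) :=
  continuous_pi fun n => (A n).continuous.subtype_mk _

/-- The metrizable quotient of `K`. -/
def KQ : Type _ := Set.range (coord A V hA)

instance : TopologicalSpace (KQ A V hA) := instTopologicalSpaceSubtype

instance : CompactSpace (KQ A V hA) :=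
  isCompact_iff_compactSpace.1 (isCompact_range (continuous_coord A V hA))

instance : T2Space (KQ A V hA) := inferInstanceAs (T2Space (Set.range (coord A V hA)))

instance : MetrizableSpace (KQ A V hA) :=
  inferInstanceAs (MetrizableSpace (Set.range (coord A V hA)))

/-- The projection onto the quotient. -/
def proj : C(K, KQ A V hA) :=
  ⟨fun k => ⟨coord A V hA k, k, rfl⟩, (continuous_coord A V hA).subtype_mk _⟩

theorem proj_surj : Function.Surjective (proj A V hA) := by
  rintro ⟨y, k, rfl⟩
  exact ⟨k, rfl⟩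

theorem proj_quot : Topology.IsQuotientMap (proj A V hA) :=
  (proj A V hA).continuous.isClosedMap.isQuotientMap (proj A V hA).continuous (proj_surj A V hA)

theorem proj_eq {k k' : K} (h : ∀ n, A n k = A n k') : proj A V hA k = proj A V hA k' := by
  refine Subtype.ext (funext fun n => Subtype.ext ?_)
  exact h n

theorem proj_eq_iff {k k' : K} (h : proj A V hA k = proj A V hA k') (n : ℕ) : A n k = A n k' := by
  have := congrArg (fun y : KQ A V hA => ((y.1 n : V) : E)) h
  exact this

/-- Pull back along the projection. -/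
noncomputable def pull : C(KQ A V hA, V) →ₗᵢ[ℝ] mem A V where
  toFun u := ⟨⟨fun k => (u (proj A V hA k) : E), continuous_subtype_val.comp
      (u.continuous.comp (proj A V hA).continuous)⟩, fun k => (u _).2, fun k k' h => by
        change (u (proj A V hA k) : E) = u (proj A V hA k')
        rw [proj_eq A V hA h]⟩
  map_add' u v := rfl
  map_smul' c u := rfl
  norm_map' u := by
    change ‖(⟨fun k => (u (proj A V hA k) : E), continuous_subtype_val.comp
      (u.continuous.comp (proj A V hA).continuous)⟩ : C(K, E))‖ = ‖u‖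
    apply le_antisymm
    · refine (ContinuousMap.norm_le _ (norm_nonneg _)).2 fun k => ?_
      exact u.norm_coe_le_norm (proj A V hA k)
    · refine (ContinuousMap.norm_le _ (norm_nonneg _)).2 fun y => ?_
      obtain ⟨k, rfl⟩ := proj_surj A V hA y
      exact ContinuousMap.norm_coe_le_norm
        (⟨fun k => (u (proj A V hA k) : E), continuous_subtype_val.comp
          (u.continuous.comp (proj A V hA).continuous)⟩ : C(K, E)) k

theorem pull_apply (u : C(KQ A V hA, V)) (k : K) :
    ((pull A V hA u : mem A V) : C(K, E)) k = u (proj A V hA k) := rfl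

theorem pull_surj : Function.Surjective (pull A V hA) := by
  classical
  rintro ⟨h, hv, hf⟩
  have hs := proj_surj A V hA
  choose s hs using hs
  let u0 : KQ A V hA → V := fun y => ⟨h (s y), hv _⟩
  have hu : ∀ k, u0 (proj A V hA k) = ⟨h k, hv k⟩ := by
    intro k
    refine Subtype.ext (hf _ _ fun n => ?_)
    exact proj_eq_iff A V hA (hs _) n
  have hc : Continuous u0 := by
    rw [(proj_quot A V hA).continuous_iff]
    have : u0 ∘ proj A V hA = fun k => ⟨h k, hv k⟩ := funext hu
    rw [this]
    exact h.continuous.subtype_mk _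
  refine ⟨⟨u0, hc⟩, Subtype.ext (ContinuousMap.ext fun k => ?_)⟩
  rw [pull_apply]
  exact congrArg Subtype.val (hu k)

/-- The member as a space of continuous functions on a metrizable compact space. -/
noncomputable def memIso : C(KQ A V hA, V) ≃ₗᵢ[ℝ] mem A V :=
  LinearIsometryEquiv.ofSurjective (pull A V hA) (pull_surj A V hA)

theorem memIso_apply (u : C(KQ A V hA, V)) : memIso A V hA u = pull A V hA u := rfl

include hA in
theorem isSeparable_mem (hVs : IsSeparable (V : Set E)) : IsSeparable (mem A V : Set C(K, E)) := by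
  have : SeparableSpace V := hVs.separableSpace
  have : SecondCountableTopology V := UniformSpace.secondCountable_of_separable V
  letI := metrizableSpaceMetric (KQ A V hA)
  have : SeparableSpace (KQ A V hA) := inferInstance
  have : SecondCountableTopology (KQ A V hA) := UniformSpace.secondCountable_of_separable _
  have : SeparableSpace C(KQ A V hA, V) := inferInstance
  have hc : Continuous (fun u : C(KQ A V hA, V) => ((pull A V hA u : mem A V) : C(K, E))) :=
    continuous_subtype_val.comp (pull A V hA).continuous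
  have h1 := isSeparable_range hc
  refine h1.mono fun h hh => ?_
  obtain ⟨u, hu⟩ := pull_surj A V hA ⟨h, hh⟩
  exact ⟨u, congrArg Subtype.val hu⟩


/-- The finite sum of coordinate distances. -/
noncomputable def rho (A : ℕ → C(K, E)) (N : ℕ) (a b : K) : ℝ :=
  ∑ j ∈ Finset.range N, ‖A j a - A j b‖

omit [CompactSpace K] [T2Space K] in
theorem rho_nonneg (A : ℕ → C(K, E)) (N : ℕ) (a b : K) : 0 ≤ rho A N a b :=
  Finset.sum_nonneg fun _ _ => norm_nonneg _

omit [CompactSpace K] [T2Space K] in
theorem rho_self (A : ℕ → C(K, E)) (N : ℕ) (a : K) : rho A N a a = 0 := by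
  simp [rho]

omit [CompactSpace K] [T2Space K] in
theorem rho_mono (A : ℕ → C(K, E)) {M N : ℕ} (h : M ≤ N) (a b : K) : rho A M a b ≤ rho A N a b :=
  Finset.sum_le_sum_of_subset_of_nonneg (Finset.range_mono h) fun _ _ _ => norm_nonneg _

omit [CompactSpace K] [T2Space K] in
theorem norm_le_rho (A : ℕ → C(K, E)) {j N : ℕ} (h : j < N) (a b : K) :
    ‖A j a - A j b‖ ≤ rho A N a b :=
  Finset.single_le_sum (f := fun j => ‖A j a - A j b‖) (fun _ _ => norm_nonneg _)
    (Finset.mem_range.2 h)

/-- Uniform factorisation: `h` is constant on the fibres of `A`, so it is uniformly determined by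
finitely many coordinates. -/
theorem exists_N {A : ℕ → C(K, E)} {h : C(K, E)} (hf : ∀ k k', (∀ n, A n k = A n k') → h k = h k')
    {ε : ℝ} (hε : 0 < ε) :
    ∃ N : ℕ, ∀ a b : K, rho A N a b < 1 / ((N : ℝ) + 1) → ‖h a - h b‖ < ε := by
  by_contra hcon
  push Not at hcon
  let W : ℕ → Set (K × K) := fun N => {p | rho A N p.1 p.2 ≤ 1 / ((N : ℝ) + 1) ∧ ε ≤ ‖h p.1 - h p.2‖}
  have hW : ∀ N, IsClosed (W N) := by
    intro N
    have c1 : Continuous fun p : K × K => rho A N p.1 p.2 := by
      unfold rho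
      fun_prop
    have c2 : Continuous fun p : K × K => ‖h p.1 - h p.2‖ := by fun_prop
    exact (isClosed_le c1 continuous_const).inter (isClosed_le continuous_const c2)
  have hanti : ∀ N, W (N + 1) ⊆ W N := by
    rintro N p ⟨h1, h2⟩
    refine ⟨?_, h2⟩
    refine (rho_mono A (Nat.le_succ N) _ _).trans (h1.trans ?_)
    apply one_div_le_one_div_of_le (by positivity)
    push_cast
    linarith
  have hne : ∀ N, (W N).Nonempty := by
    intro N
    obtain ⟨a, b, h1, h2⟩ := hcon N
    exact ⟨(a, b), h1.le, h2⟩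
  obtain ⟨p, hp⟩ := IsCompact.nonempty_iInter_of_sequence_nonempty_isCompact_isClosed W hanti hne
    (hW 0).isCompact hW
  have hp' : ∀ N, p ∈ W N := fun N => Set.mem_iInter.1 hp N
  have heq : h p.1 = h p.2 := by
    refine hf _ _ fun n => ?_
    have hb : ∀ N : ℕ, n < N → ‖A n p.1 - A n p.2‖ ≤ 1 / ((N : ℝ) + 1) := fun N hN =>
      (norm_le_rho A hN _ _).trans (hp' N).1
    have h0 : ‖A n p.1 - A n p.2‖ ≤ 0 := by
      refine le_of_forall_pos_le_add fun δ hδ => ?_
      obtain ⟨M, hM⟩ := exists_nat_one_div_lt hδ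
      have := hb (max (n + 1) M) (lt_of_lt_of_le (Nat.lt_succ_self n) (le_max_left _ _))
      have h2 : 1 / (((max (n + 1) M : ℕ) : ℝ) + 1) ≤ 1 / ((M : ℝ) + 1) := by
        apply one_div_le_one_div_of_le (by positivity)
        have : (M : ℝ) ≤ ((max (n + 1) M : ℕ) : ℝ) := by exact_mod_cast le_max_right _ _
        linarith
      linarith
    have := norm_le_zero_iff.1 h0
    exact sub_eq_zero.1 this
  have := (hp' 0).2
  rw [heq, sub_self, norm_zero] at this
  linarith

/-- **Approximation.** Let `F n = mem (B n) (V n)` be an increasing sequence (in the sense of the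
hypotheses below), `A` a sequence of coordinates all of which lie in the union. A function constant on
the fibres of `A`, with values in the closure of the union of the `V n`, is a uniform limit of members
of the `F n`. -/
theorem exists_approx {A : ℕ → C(K, E)} {B : ℕ → ℕ → C(K, E)} {V : ℕ → Submodule ℝ E}
    (hV : Monotone V) (hF : Monotone fun n => mem (B n) (V n))
    (hAB : ∀ j, ∃ n, A j ∈ mem (B n) (V n))
    {h : C(K, E)} (hf : ∀ k k', (∀ n, A n k = A n k') → h k = h k')
    (hv : ∀ k, h k ∈ closure (⋃ n, (V n : Set E))) {ε : ℝ} (hε : 0 < ε) :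
    ∃ n, ∃ h' ∈ mem (B n) (V n), ‖h - h'‖ ≤ 2 * ε := by
  classical
  obtain ⟨N, hN⟩ := exists_N hf hε
  set δ : ℝ := 1 / ((N : ℝ) + 1) with hδ
  have hδ0 : 0 < δ := by positivity
  -- finite subcover
  have hnh : ∀ a : K, {b | rho A N a b < δ} ∈ nhds a := by
    intro a
    have c : Continuous fun b => rho A N a b := by
      unfold rho
      fun_prop
    refine (isOpen_lt c continuous_const).mem_nhds ?_
    change rho A N a a < δ
    rw [rho_self]
    exact hδ0
  obtain ⟨t, ht⟩ := CompactSpace.elim_nhds_subcover _ hnh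
  -- approximate values
  have hval : ∀ a : K, ∃ n, ∃ v ∈ V n, ‖h a - v‖ < ε := by
    intro a
    obtain ⟨v, hv1, hv2⟩ := Metric.mem_closure_iff.1 (hv a) ε hε
    obtain ⟨n, hn⟩ := Set.mem_iUnion.1 hv1
    exact ⟨n, v, hn, by rwa [dist_eq_norm] at hv2⟩
  choose nv v hvV hvb using hval
  choose nc hnc using hAB
  set n : ℕ := t.sup nv ⊔ (Finset.range N).sup nc with hn
  have hn1 : ∀ a ∈ t, v a ∈ V n := fun a ha =>
    hV (le_sup_of_le_left (Finset.le_sup ha)) (hvV a)
  have hn2 : ∀ j < N, A j ∈ mem (B n) (V n) := fun j hj =>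
    hF (le_sup_of_le_right (Finset.le_sup (Finset.mem_range.2 hj))) (hnc j)
  -- the partition of unity
  let ψ : K → K → ℝ := fun a x => max 0 (δ - rho A N a x)
  let Ψ : K → ℝ := fun x => ∑ a ∈ t, ψ a x
  have hψ0 : ∀ a x, 0 ≤ ψ a x := fun a x => le_max_left _ _
  have hΨ : ∀ x, 0 < Ψ x := by
    intro x
    have hx : x ∈ ⋃ a ∈ t, {b | rho A N a b < δ} := by rw [ht]; trivial
    obtain ⟨a, ha, hxa⟩ := Set.mem_iUnion₂.1 hx
    refine lt_of_lt_of_le ?_ (Finset.single_le_sum (f := fun a => ψ a x) (fun b _ => hψ0 b x) ha)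
    exact lt_max_of_lt_right (by
      have : rho A N a x < δ := hxa
      linarith)
  have hcψ : ∀ a, Continuous (ψ a) := by
    intro a
    have c : Continuous fun b => rho A N a b := by
      unfold rho
      fun_prop
    exact continuous_const.max (continuous_const.sub c)
  have hcΨ : Continuous Ψ := continuous_finsetSum _ fun a _ => hcψ a
  let h'f : K → E := fun x => ∑ a ∈ t, (ψ a x / Ψ x) • v a
  have hch' : Continuous h'f := by
    refine continuous_finsetSum _ fun a _ => ?_
    exact ((hcψ a).div hcΨ fun x => (hΨ x).ne').smul continuous_const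
  refine ⟨n, ⟨h'f, hch'⟩, ⟨fun x => ?_, fun x y hxy => ?_⟩, ?_⟩
  · exact Submodule.sum_mem _ fun a ha => Submodule.smul_mem _ _ (hn1 a ha)
  · -- constant on the fibres
    have hc : ∀ j < N, A j x = A j y := fun j hj => (hn2 j hj).2 x y hxy
    have hρ : ∀ a, rho A N a x = rho A N a y := by
      intro a
      refine Finset.sum_congr rfl fun j hj => ?_
      rw [hc j (Finset.mem_range.1 hj)]
    have hψe : ∀ a, ψ a x = ψ a y := fun a => by simp only [ψ, hρ a]
    have hΨe : Ψ x = Ψ y := Finset.sum_congr rfl fun a _ => hψe a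
    change (∑ a ∈ t, (ψ a x / Ψ x) • v a) = ∑ a ∈ t, (ψ a y / Ψ y) • v a
    simp only [hψe, hΨe]
  · -- the bound
    refine (ContinuousMap.norm_le _ (by positivity)).2 fun x => ?_
    have e1 : (h - ⟨h'f, hch'⟩ : C(K, E)) x = ∑ a ∈ t, (ψ a x / Ψ x) • (h x - v a) := by
      have hsum : ∑ a ∈ t, ψ a x / Ψ x = 1 := by
        rw [← Finset.sum_div]
        exact div_self (hΨ x).ne'
      simp only [smul_sub, Finset.sum_sub_distrib, ← Finset.sum_smul, hsum, one_smul]
      rfl
    rw [e1]
    calc ‖∑ a ∈ t, (ψ a x / Ψ x) • (h x - v a)‖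
        ≤ ∑ a ∈ t, ‖(ψ a x / Ψ x) • (h x - v a)‖ := norm_sum_le _ _
      _ ≤ ∑ a ∈ t, (ψ a x / Ψ x) * (2 * ε) := by
          refine Finset.sum_le_sum fun a _ => ?_
          have hc0 : 0 ≤ ψ a x / Ψ x := div_nonneg (hψ0 a x) (hΨ x).le
          rw [norm_smul, Real.norm_eq_abs, abs_of_nonneg hc0]
          by_cases hzero : ψ a x = 0
          · simp [hzero]
          · refine mul_le_mul_of_nonneg_left ?_ hc0
            have hpos : 0 < ψ a x := lt_of_le_of_ne (hψ0 a x) (Ne.symm hzero)
            have hlt : rho A N a x < δ := by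
              by_contra hge
              push Not at hge
              have : ψ a x = 0 := max_eq_left (by linarith)
              exact hzero this
            have h1 := hN a x hlt
            have h2 := hvb a
            have e : h x - v a = (h a - v a) - (h a - h x) := by abel
            rw [e]
            have := norm_sub_le (h a - v a) (h a - h x)
            linarith
      _ = 2 * ε := by
          rw [← Finset.sum_mul, ← Finset.sum_div]
          change Ψ x / Ψ x * (2 * ε) = 2 * ε
          rw [div_self (hΨ x).ne', one_mul]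

/-- Representation of a member of the rich family. -/
structure Rep (F : Submodule ℝ C(K, E)) (A : ℕ → C(K, E)) (V : Submodule ℝ E) : Prop where
  eq : F = mem A V
  sep : IsSeparable (V : Set E)
  closed : IsClosed (V : Set E)
  val : ∀ n k, A n k ∈ V
  nz : ∃ v ∈ V, v ≠ 0
  inf : ∃ T : Set K, T.Infinite ∧ ∀ t ∈ T, ∀ t' ∈ T, t ≠ t' → ∃ n, A n t ≠ A n t'

/-- The rich family. -/
def Rich (F : Submodule ℝ C(K, E)) : Prop := ∃ A V, Rep F A V

theorem Rich.isSeparable {F : Submodule ℝ C(K, E)} (h : Rich F) : IsSeparable (F : Set C(K, E)) := by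
  obtain ⟨A, V, hr⟩ := h
  rw [hr.eq]
  exact isSeparable_mem A V hr.val hr.sep

/-- Cofinality. -/
theorem rich_cofinal [Infinite K] [Nontrivial E] (S : Set C(K, E)) (hS : IsSeparable S) :
    ∃ F : Submodule ℝ C(K, E), Rich F ∧ S ⊆ F ∧ IsSeparable (F : Set C(K, E)) := by
  classical
  obtain ⟨c, hcc, hSc⟩ := hS
  obtain ⟨e, he⟩ := exists_ne (0 : E)
  -- Urysohn functions
  let d : ℕ ↪ K := Infinite.natEmbedding K
  have hw : ∀ a b : K, ∃ w : C(K, E), a ≠ b → w a ≠ w b := by
    intro a b
    by_cases hab : a = b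
    · exact ⟨0, fun h => absurd hab h⟩
    obtain ⟨w, h0, h1, -⟩ := exists_continuous_zero_one_of_isClosed (isClosed_singleton (x := a))
      (isClosed_singleton (x := b)) (by simpa using hab)
    refine ⟨⟨fun k => w k • e, by fun_prop⟩, fun _ => ?_⟩
    change w a • e ≠ w b • e
    rw [h0 (Set.mem_singleton a), h1 (Set.mem_singleton b)]
    simpa using he.symm
  choose w hw using hw
  let all : Set C(K, E) := c ∪ Set.range (fun p : ℕ × ℕ => w (d p.1) (d p.2))
  have hall : all.Countable := hcc.union (Set.countable_range _)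
  have hne : all.Nonempty := ⟨_, Or.inr ⟨(0, 0), rfl⟩⟩
  obtain ⟨A, hA⟩ := hall.exists_eq_range hne
  let V : Submodule ℝ E := (Submodule.span ℝ ((⋃ n, Set.range (A n)) ∪ {e})).topologicalClosure
  have hval : ∀ n k, A n k ∈ V := fun n k =>
    Submodule.le_topologicalClosure _ (Submodule.subset_span (Or.inl (Set.mem_iUnion.2 ⟨n, k, rfl⟩)))
  have hsepV : IsSeparable (V : Set E) := by
    have h1 : IsSeparable (⋃ n, Set.range (A n)) :=
      IsSeparable.iUnion fun n => (isCompact_range (A n).continuous).isSeparable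
    have h2 := (h1.union (Set.countable_singleton e).isSeparable).span (R := ℝ)
    simpa [V, Submodule.topologicalClosure_coe] using h2.closure
  have hcl : IsClosed (V : Set E) := Submodule.isClosed_topologicalClosure _
  have hrep : Rep (mem A V) A V := by
    refine ⟨rfl, hsepV, hcl, hval, ⟨e, ?_, he⟩, ⟨Set.range d, Set.infinite_range_of_injective d.injective, ?_⟩⟩
    · exact Submodule.le_topologicalClosure _ (Submodule.subset_span (Or.inr rfl))
    · rintro _ ⟨i, rfl⟩ _ ⟨j, rfl⟩ hij
      have : w (d i) (d j) ∈ all := Or.inr ⟨(i, j), rfl⟩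
      rw [hA] at this
      obtain ⟨n, hn⟩ := this
      refine ⟨n, ?_⟩
      rw [hn]
      exact hw _ _ hij
  refine ⟨mem A V, ⟨A, V, hrep⟩, ?_, isSeparable_mem A V hval hsepV⟩
  intro x hx
  have hcm : c ⊆ mem A V := by
    intro y hy
    have : y ∈ all := Or.inl hy
    rw [hA] at this
    obtain ⟨n, rfl⟩ := this
    exact coord_mem hval n
  exact closure_minimal hcm (isClosed_mem hcl) (hSc hx)

/-- Closure under increasing unions. -/
theorem rich_iSup [Nonempty K] (F : ℕ → Submodule ℝ C(K, E)) (hm : Monotone F) (hP : ∀ n, Rich (F n)) :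
    Rich (⨆ n, F n).topologicalClosure := by
  classical
  choose B V hr using hP
  have hFe : ∀ n, F n = mem (B n) (V n) := fun n => (hr n).eq
  have hFm : Monotone fun n => mem (B n) (V n) := by
    intro m n hmn
    have := hm hmn
    rw [hFe m, hFe n] at this
    exact this
  obtain ⟨k0⟩ := ‹Nonempty K›
  have hVm : Monotone V := by
    intro m n hmn v hv
    have h1 : ContinuousMap.const K v ∈ mem (B m) (V m) := ⟨fun _ => hv, fun _ _ _ => rfl⟩
    exact (hFm hmn h1).1 k0
  let A : ℕ → C(K, E) := fun j => B (Nat.unpair j).1 (Nat.unpair j).2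
  have hAp : ∀ n m, A (Nat.pair n m) = B n m := by
    intro n m
    simp [A]
  let W : Submodule ℝ E := (⨆ n, V n).topologicalClosure
  have hWV : ∀ n, V n ≤ W := fun n v hv =>
    Submodule.le_topologicalClosure _ (Submodule.mem_iSup_of_mem n hv)
  have hcl : IsClosed (W : Set E) := Submodule.isClosed_topologicalClosure _
  have hval : ∀ n k, A n k ∈ W := fun n k => hWV _ ((hr _).val _ k)
  have heq : (⨆ n, F n).topologicalClosure = mem A W := by
    apply le_antisymm
    · refine Submodule.topologicalClosure_minimal _ (iSup_le fun n => ?_) (isClosed_mem hcl)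
      rw [hFe n]
      rintro h ⟨h1, h2⟩
      refine ⟨fun k => hWV n (h1 k), fun k k' hk => h2 k k' fun m => ?_⟩
      rw [← hAp n m]
      exact hk _
    · rintro h ⟨h1, h2⟩
      refine Metric.mem_closure_iff.2 fun ε hε => ?_
      have hAB : ∀ j, ∃ n, A j ∈ mem (B n) (V n) := fun j =>
        ⟨_, coord_mem (hr _).val _⟩
      have hv : ∀ k, h k ∈ closure (⋃ n, (V n : Set E)) := by
        intro k
        refine Metric.mem_closure_iff.2 fun δ hδ => ?_
        obtain ⟨u, hu, hd⟩ := Metric.mem_closure_iff.1 (h1 k) δ hδ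
        obtain ⟨n, hn⟩ := mem_iSup_mono hVm hu
        exact ⟨u, Set.mem_iUnion.2 ⟨n, hn⟩, hd⟩
      obtain ⟨n, h', hh', hb⟩ := exists_approx hVm hFm hAB h2 hv (half_pos (half_pos hε))
      refine ⟨h', ?_, ?_⟩
      · refine Submodule.mem_iSup_of_mem n ?_
        rw [hFe n]
        exact hh'
      · rw [dist_eq_norm]
        linarith
  refine ⟨A, W, ⟨heq, ?_, hcl, hval, ?_, ?_⟩⟩
  · exact isSeparable_closure_iSup fun n => (hr n).sep
  · obtain ⟨v, hv, hv0⟩ := (hr 0).nz
    exact ⟨v, hWV 0 hv, hv0⟩
  · obtain ⟨T, hT, hTs⟩ := (hr 0).inf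
    refine ⟨T, hT, fun t ht t' ht' htt => ?_⟩
    obtain ⟨m, hm'⟩ := hTs t ht t' ht' htt
    exact ⟨Nat.pair 0 m, by rwa [hAp]⟩

/-- The metrizable case, with a metrizable compact `K'`. -/
theorem exists_linear_metrizable {K' E' Y : Type*} [TopologicalSpace K'] [CompactSpace K']
    [MetrizableSpace K'] [Infinite K'] [NormedAddCommGroup E'] [NormedSpace ℝ E'] [Nontrivial E']
    [NormedAddCommGroup Y] [NormedSpace ℝ Y] {f : C(K', E') → Y} (hf : IsSphereIso f) :
    ∃ T : C(K', E') ≃ₗᵢ[ℝ] Y, ∀ x, ‖x‖ = 1 → T x = f x := by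
  letI := metrizableSpaceMetric K'
  exact CK.exists_linear hf

/-- Members of the rich family extend. -/
theorem Rich.extends {Y : Type*} [NormedAddCommGroup Y] [NormedSpace ℝ Y]
    {F : Submodule ℝ C(K, E)} (hF : Rich F) {φ : F → Y} (hφ : IsSphereIso φ) :
    ∃ T : F ≃ₗᵢ[ℝ] Y, ∀ x, ‖x‖ = 1 → T x = φ x := by
  obtain ⟨A, V, hr⟩ := hF
  obtain rfl := hr.eq
  have hA := hr.val
  obtain ⟨v, hv, hv0⟩ := hr.nz
  haveI : Nontrivial V := ⟨⟨⟨v, hv⟩, 0, fun h => hv0 (congrArg Subtype.val h)⟩⟩
  obtain ⟨T0, hT0, hTs⟩ := hr.inf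
  haveI : Infinite (KQ A V hA) := by
    have hinj : Set.InjOn (proj A V hA) T0 := by
      intro t ht t' ht' h
      by_contra hne
      obtain ⟨n, hn⟩ := hTs t ht t' ht' hne
      exact hn (proj_eq_iff A V hA h n)
    have := (Set.infinite_of_injOn_mapsTo hinj (Set.mapsTo_univ _ _) hT0)
    exact Set.infinite_univ_iff.1 this
  let e := memIso A V hA
  have hcomp : IsSphereIso (fun u : C(KQ A V hA, V) => φ (e u)) := by
    refine ⟨fun u hu => hφ.norm_eq _ (by rw [e.norm_map]; exact hu), fun u w hu hw => ?_,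
      fun z hz => ?_⟩
    · rw [hφ.iso _ _ (by rw [e.norm_map]; exact hu) (by rw [e.norm_map]; exact hw), ← map_sub,
        e.norm_map]
    · obtain ⟨x, hx, hfx⟩ := hφ.surj z hz
      refine ⟨e.symm x, by rw [e.symm.norm_map]; exact hx, ?_⟩
      simp [hfx]
  obtain ⟨T, hT⟩ := exists_linear_metrizable hcomp
  refine ⟨e.symm.trans T, fun x hx => ?_⟩
  have h1 := hT (e.symm x) (by rw [e.symm.norm_map]; exact hx)
  simpa using h1

/-- **Main theorem.** Every surjective sphere isometry of `C(K, E)`, `K` an infinite compact Hausdorff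
space, `E` a nonzero real normed space, is the restriction of a surjective linear isometry. -/
theorem exists_linear_hausdorff [Infinite K] [Nontrivial E] {Y : Type*} [NormedAddCommGroup Y]
    [NormedSpace ℝ Y] {f : C(K, E) → Y} (hf : IsSphereIso f) :
    ∃ T : C(K, E) ≃ₗᵢ[ℝ] Y, ∀ x, ‖x‖ = 1 → T x = f x :=
  extends_of_rich hf Rich rich_cofinal (fun F hm hP _ => rich_iSup F hm hP)
    (fun _ hF _ _ _ _ _ _ hφ => hF.extends hφ)

end Mem

universe u v

variable {X : Type u} {Y : Type v} [NormedAddCommGroup X] [NormedSpace ℝ X] [NormedAddCommGroup Y]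
  [NormedSpace ℝ Y]

/-- Extension if the source is a `C(K, E)`. -/
theorem extends_of_isVectorCKH (hX : IsVectorCKH X) {f : X → Y} (hf : IsSphereIso f) :
    ∃ T : X ≃ₗᵢ[ℝ] Y, ∀ x, ‖x‖ = 1 → T x = f x := by
  obtain ⟨K, E, _, _, _, _, _, _, _, ⟨e⟩⟩ := hX
  have hF : IsSphereIso (fun p : C(K, E) => f (e.symm p)) := by
    refine ⟨fun p hp => hf.norm_eq _ (by rw [e.symm.norm_map]; exact hp), fun p q hp hq => ?_,
      fun z hz => ?_⟩
    · rw [hf.iso _ _ (by rw [e.symm.norm_map]; exact hp) (by rw [e.symm.norm_map]; exact hq),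
        ← map_sub, e.symm.norm_map]
    · obtain ⟨x, hx, hfx⟩ := hf.surj z hz
      refine ⟨e x, by rw [e.norm_map]; exact hx, ?_⟩
      simp [hfx]
  obtain ⟨T, hT⟩ := exists_linear_hausdorff hF
  refine ⟨e.trans T, fun x hx => ?_⟩
  have h1 := hT (e x) (by rw [e.norm_map]; exact hx)
  simpa using h1

/-- Map of the unit spheres, source version. -/
theorem extends_sphere_source_CKH (f : sphere (0 : X) 1 → sphere (0 : Y) 1) (hf : Isometry f)
    (hs : Function.Surjective f) (hX : IsVectorCKH X) :
    ∃ T : X ≃ₗᵢ[ℝ] Y, ∀ x : sphere (0 : X) 1, T x = f x := by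
  obtain ⟨g, hg, hgf⟩ := LSum.exists_ambient f hf hs
  obtain ⟨T, hT⟩ := extends_of_isVectorCKH hX hg
  exact ⟨T, fun x => by rw [hT x (by simpa using x.2), hgf]⟩

/-- Map of the unit spheres, target version. -/
theorem extends_sphere_target_CKH (f : sphere (0 : X) 1 → sphere (0 : Y) 1) (hf : Isometry f)
    (hs : Function.Surjective f) (hY : IsVectorCKH Y) :
    ∃ T : X ≃ₗᵢ[ℝ] Y, ∀ x : sphere (0 : X) 1, T x = f x := by
  obtain ⟨h, hh, hhs, htr⟩ := LSum.exists_inverse f hf hs
  exact htr (extends_sphere_source_CKH h hh hhs hY)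

end Vale.Agent.Lib.P084.SepRed
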