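/-
Tingley's problem for `C₀(L, E)`, `L` any infinite locally compact Hausdorff space, `E` any nonzero real
normed space: reduction to the metrizable case through a rich family of subspaces, inside the space of
continuous functions on a compact space vanishing at a point.
-/
import Vale.Agent.Lib.P084.SepRed.CKH
import Vale.Agent.Lib.P084.C0.Top
import Vale.Agent.Lib.P084.DefsC0H

set_option linter.unusedSectionVars false

namespace Vale.Agent.Lib.P084.SepRed

open Vale.Agent.Lib.P084.UC
open TopologicalSpace Metric Topology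
open scoped ZeroAtInfty

section Pointed

variable {K : Type*} [TopologicalSpace K] [CompactSpace K] [T2Space K] {E : Type*}
  [NormedAddCommGroup E] [NormedSpace ℝ E]

/-- The continuous functions vanishing at `p`. -/
def van (E : Type*) [NormedAddCommGroup E] [NormedSpace ℝ E] (p : K) : Submodule ℝ C(K, E) where
  carrier := {h | h p = 0}
  add_mem' {a b} ha hb := by
    change (a + b) p = 0
    have h1 : a p = 0 := ha
    have h2 : b p = 0 := hb
    simp [h1, h2]
  zero_mem' := rfl
  smul_mem' c a ha := by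
    change (c • a) p = 0
    have h1 : a p = 0 := ha
    simp [h1]

theorem van_apply {p : K} (h : van E p) : (h : C(K, E)) p = 0 := h.2

variable {L : Type*} [TopologicalSpace L] {i : L → K} {p : K}

theorem norm_coe_le_C0 (x : C₀(L, E)) (s : L) : ‖x s‖ ≤ ‖x‖ := by
  rw [← ZeroAtInftyContinuousMap.norm_toBCF_eq_norm]
  exact x.toBCF.norm_coe_le_norm s

theorem C0_norm_le (x : C₀(L, E)) {C : ℝ} (hC : 0 ≤ C) : ‖x‖ ≤ C ↔ ∀ s, ‖x s‖ ≤ C := by
  rw [← ZeroAtInftyContinuousMap.norm_toBCF_eq_norm]
  exact BoundedContinuousFunction.norm_le hC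

theorem extend_i (hi : IsOpenEmbedding i) (u : L → E) (l : L) :
    Function.extend i u 0 (i l) = u l := hi.injective.extend_apply _ _ _

theorem extend_p (hr : Set.range i = {p}ᶜ) (u : L → E) : Function.extend i u 0 p = 0 := by
  refine Function.extend_apply' _ _ _ ?_
  rintro ⟨l, hl⟩
  have : i l ∈ Set.range i := ⟨l, rfl⟩
  rw [hr, hl] at this
  exact this rfl

theorem exists_of_ne (hr : Set.range i = {p}ᶜ) {y : K} (hy : y ≠ p) : ∃ l, i l = y := by
  have : y ∈ Set.range i := by
    rw [hr]
    exact hy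
  exact this

theorem continuous_extend (hi : IsOpenEmbedding i) (hr : Set.range i = {p}ᶜ) (u : C₀(L, E)) :
    Continuous (Function.extend i u 0) := by
  rw [continuous_iff_continuousAt]
  intro y
  by_cases hy : y = p
  · subst hy
    rw [ContinuousAt, extend_p hr]
    rw [Metric.tendsto_nhds]
    intro ε hε
    have h1 : ∀ᶠ l in Filter.cocompact L, ‖u l‖ < ε := by
      have := u.zero_at_infty'.eventually (Metric.ball_mem_nhds 0 hε)
      filter_upwards [this] with l hl
      simpa using hl
    obtain ⟨C, hC, hCs⟩ := Filter.mem_cocompact.1 h1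
    have hCc : IsCompact (i '' C) := hC.image hi.continuous
    have hp : y ∉ i '' C := by
      rintro ⟨l, -, hl⟩
      have : i l ∈ Set.range i := ⟨l, rfl⟩
      rw [hr, hl] at this
      exact this rfl
    filter_upwards [hCc.isClosed.isOpen_compl.mem_nhds hp] with z hz
    rw [dist_zero_right]
    by_cases hzp : z = y
    · subst hzp
      rw [extend_p hr, norm_zero]
      exact hε
    obtain ⟨l, rfl⟩ := exists_of_ne hr hzp
    rw [extend_i hi]
    exact hCs fun hl => hz ⟨l, hl, rfl⟩
  · obtain ⟨l, rfl⟩ := exists_of_ne hr hy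
    rw [← hi.continuousAt_iff]
    have : Function.extend i u 0 ∘ i = u := funext fun l => extend_i hi _ l
    rw [this]
    exact u.continuous.continuousAt

/-- Extension by zero. -/
noncomputable def ofC0 (hi : IsOpenEmbedding i) (hr : Set.range i = {p}ᶜ) :
    C₀(L, E) →ₗᵢ[ℝ] van E p where
  toFun u := ⟨⟨Function.extend i u 0, continuous_extend hi hr u⟩, extend_p hr _⟩
  map_add' u v := by
    refine Subtype.ext (ContinuousMap.ext fun y => ?_)
    by_cases hy : y = p
    · subst hy
      simp [extend_p hr]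
    · obtain ⟨l, rfl⟩ := exists_of_ne hr hy
      simp [extend_i hi]
  map_smul' c u := by
    refine Subtype.ext (ContinuousMap.ext fun y => ?_)
    by_cases hy : y = p
    · subst hy
      simp [extend_p hr]
    · obtain ⟨l, rfl⟩ := exists_of_ne hr hy
      simp [extend_i hi]
  norm_map' u := by
    change ‖(⟨Function.extend i u 0, continuous_extend hi hr u⟩ : C(K, E))‖ = ‖u‖
    apply le_antisymm
    · refine (ContinuousMap.norm_le _ (norm_nonneg _)).2 fun y => ?_
      change ‖Function.extend i u 0 y‖ ≤ ‖u‖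
      by_cases hy : y = p
      · subst hy
        rw [extend_p hr, norm_zero]
        exact norm_nonneg _
      · obtain ⟨l, rfl⟩ := exists_of_ne hr hy
        rw [extend_i hi]
        exact norm_coe_le_C0 u l
    · refine (C0_norm_le _ (norm_nonneg _)).2 fun l => ?_
      have := (⟨Function.extend i u 0, continuous_extend hi hr u⟩ : C(K, E)).norm_coe_le_norm (i l)
      have e : (⟨Function.extend i u 0, continuous_extend hi hr u⟩ : C(K, E)) (i l) = u l :=
        extend_i hi _ l
      rwa [e] at this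

theorem tendsto_i (hi : IsOpenEmbedding i) (hr : Set.range i = {p}ᶜ) :
    Filter.Tendsto i (Filter.cocompact L) (nhds p) := by
  rw [(nhds_basis_opens p).tendsto_right_iff]
  rintro s ⟨hp, hs⟩
  have hsub : sᶜ ⊆ Set.range i := by
    rw [hr]
    intro y hy hyp
    exact hy (by
      have : y = p := hyp
      rw [this]
      exact hp)
  have hc : IsCompact (i ⁻¹' sᶜ) :=
    (hi.isInducing.isCompact_preimage_iff hsub).2 hs.isClosed_compl.isCompact
  refine Filter.mem_cocompact.2 ⟨_, hc, fun x hx => ?_⟩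
  by_contra hcon
  exact hx hcon

theorem ofC0_surj (hi : IsOpenEmbedding i) (hr : Set.range i = {p}ᶜ) :
    Function.Surjective (ofC0 (E := E) hi hr) := by
  rintro ⟨h, hp⟩
  have hp' : h p = 0 := hp
  have hz : Filter.Tendsto (fun l => h (i l)) (Filter.cocompact L) (nhds 0) := by
    have := (h.continuous.tendsto p).comp (tendsto_i hi hr)
    rwa [hp'] at this
  let u : C₀(L, E) := ⟨⟨fun l => h (i l), h.continuous.comp hi.continuous⟩, hz⟩
  refine ⟨u, Subtype.ext (ContinuousMap.ext fun y => ?_)⟩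
  change Function.extend i u 0 y = h y
  by_cases hy : y = p
  · subst hy
    rw [extend_p hr, hp']
  · obtain ⟨l, rfl⟩ := exists_of_ne hr hy
    rw [extend_i hi]
    rfl

/-- `C₀(L, E)` as a space of functions on a compact space vanishing at a point. -/
noncomputable def c0Iso (hi : IsOpenEmbedding i) (hr : Set.range i = {p}ᶜ) :
    C₀(L, E) ≃ₗᵢ[ℝ] van E p :=
  LinearIsometryEquiv.ofSurjective (ofC0 hi hr) (ofC0_surj hi hr)

/-- The members of the rich family in `van E p`. -/
def memJ (p : K) (A : ℕ → C(K, E)) (V : Submodule ℝ E) : Submodule ℝ (van E p) :=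
  (mem A V).comap (van E p).subtype

theorem mem_memJ {A : ℕ → C(K, E)} {V : Submodule ℝ E} {h : van E p} :
    h ∈ memJ p A V ↔ (h : C(K, E)) ∈ mem A V := Iff.rfl

theorem isClosed_memJ {A : ℕ → C(K, E)} {V : Submodule ℝ E} (hV : IsClosed (V : Set E)) :
    IsClosed (memJ p A V : Set (van E p)) :=
  (isClosed_mem hV).preimage continuous_subtype_val

theorem isSeparable_memJ (A : ℕ → C(K, E)) (V : Submodule ℝ E) (hA : ∀ n k, A n k ∈ V)
    (hVs : IsSeparable (V : Set E)) : IsSeparable (memJ p A V : Set (van E p)) :=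
  Topology.IsEmbedding.subtypeVal.isSeparable_preimage (isSeparable_mem A V hA hVs)

/-- Representation of a member of the rich family. -/
structure Rep0 (F : Submodule ℝ (van E p)) (A : ℕ → C(K, E)) (V : Submodule ℝ E) : Prop where
  eq : F = memJ p A V
  sep : IsSeparable (V : Set E)
  closed : IsClosed (V : Set E)
  val : ∀ n k, A n k ∈ V
  nz : ∃ v ∈ V, v ≠ 0
  inf : ∃ T : Set K, T.Infinite ∧ ∀ t ∈ T, ∀ t' ∈ T, t ≠ t' → ∃ n, A n t ≠ A n t'
  van : ∀ n, A n p = 0

/-- The rich family. -/
def Rich0 (F : Submodule ℝ (van E p)) : Prop := ∃ A V, Rep0 F A V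

/-- Cofinality. -/
theorem rich0_cofinal [Infinite K] [Nontrivial E] (S : Set (van E p)) (hS : IsSeparable S) :
    ∃ F : Submodule ℝ (van E p), Rich0 F ∧ S ⊆ F ∧ IsSeparable (F : Set (van E p)) := by
  classical
  obtain ⟨c, hcc, hSc⟩ := hS
  obtain ⟨e, he⟩ := exists_ne (0 : E)
  let d : ℕ ↪ K := Infinite.natEmbedding K
  have hw : ∀ a b : K, ∃ w : C(K, E), w p = 0 ∧ (a ≠ b → w a ≠ w b) := by
    intro a b
    by_cases hab : a = b
    · exact ⟨0, rfl, fun h => absurd hab h⟩
    obtain ⟨w, h0, h1, -⟩ := exists_continuous_zero_one_of_isClosed (isClosed_singleton (x := a))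
      (isClosed_singleton (x := b)) (by simpa using hab)
    refine ⟨⟨fun k => (w k - w p) • e, by fun_prop⟩, ?_, fun _ => ?_⟩
    · change (w p - w p) • e = 0
      simp
    · change (w a - w p) • e ≠ (w b - w p) • e
      rw [h0 (Set.mem_singleton a), h1 (Set.mem_singleton b)]
      intro h2
      have h3 : ((0 : ℝ) - w p - (1 - w p)) • e = 0 := by
        rw [sub_smul]
        simp only [Pi.zero_apply, Pi.one_apply] at h2
        rw [h2, sub_self]
      have h4 : (0 : ℝ) - w p - (1 - w p) = -1 := by ring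
      rw [h4] at h3
      simp at h3
      exact he h3
  choose w hw0 hw using hw
  let all : Set C(K, E) := (Subtype.val '' c) ∪ Set.range (fun q : ℕ × ℕ => w (d q.1) (d q.2))
  have hall : all.Countable := (hcc.image _).union (Set.countable_range _)
  have hne : all.Nonempty := ⟨_, Or.inr ⟨(0, 0), rfl⟩⟩
  obtain ⟨A, hA⟩ := hall.exists_eq_range hne
  have hAv : ∀ n, A n p = 0 := by
    intro n
    have : A n ∈ all := by
      rw [hA]
      exact ⟨n, rfl⟩
    rcases this with ⟨x, -, hx⟩ | ⟨q, hq⟩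
    · rw [← hx]
      exact van_apply x
    · rw [← hq]
      exact hw0 _ _
  let V : Submodule ℝ E := (Submodule.span ℝ ((⋃ n, Set.range (A n)) ∪ {e})).topologicalClosure
  have hval : ∀ n k, A n k ∈ V := fun n k =>
    Submodule.le_topologicalClosure _ (Submodule.subset_span (Or.inl (Set.mem_iUnion.2 ⟨n, k, rfl⟩)))
  have hsepV : IsSeparable (V : Set E) := by
    have h1 : IsSeparable (⋃ n, Set.range (A n)) :=
      IsSeparable.iUnion fun n => (isCompact_range (A n).continuous).isSeparable
    have h2 := (h1.union (Set.countable_singleton e).isSeparable).span (R := ℝ)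
    simpa [V, Submodule.topologicalClosure_coe] using h2.closure
  have hcl : IsClosed (V : Set E) := Submodule.isClosed_topologicalClosure _
  have hrep : Rep0 (memJ p A V) A V := by
    refine ⟨rfl, hsepV, hcl, hval, ⟨e, ?_, he⟩, ⟨Set.range d, Set.infinite_range_of_injective d.injective,
      ?_⟩, hAv⟩
    · exact Submodule.le_topologicalClosure _ (Submodule.subset_span (Or.inr rfl))
    · rintro _ ⟨i, rfl⟩ _ ⟨j, rfl⟩ hij
      have : w (d i) (d j) ∈ all := Or.inr ⟨(i, j), rfl⟩
      rw [hA] at this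
      obtain ⟨n, hn⟩ := this
      refine ⟨n, ?_⟩
      rw [hn]
      exact hw _ _ hij
  refine ⟨memJ p A V, ⟨A, V, hrep⟩, ?_, isSeparable_memJ A V hval hsepV⟩
  intro x hx
  have hcm : c ⊆ memJ p A V := by
    intro y hy
    have : (y : C(K, E)) ∈ all := Or.inl ⟨y, hy, rfl⟩
    rw [hA] at this
    obtain ⟨n, hn⟩ := this
    change (y : C(K, E)) ∈ mem A V
    rw [← hn]
    exact coord_mem hval n
  exact closure_minimal hcm (isClosed_memJ hcl) (hSc hx)

/-- Closure under increasing unions. -/
theorem rich0_iSup [Nonempty K] (F : ℕ → Submodule ℝ (van E p)) (hm : Monotone F)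
    (hP : ∀ n, Rich0 (F n)) : Rich0 (⨆ n, F n).topologicalClosure := by
  classical
  choose B V hr using hP
  have hFe : ∀ n, F n = memJ p (B n) (V n) := fun n => (hr n).eq
  -- monotonicity of the values
  have hVm : Monotone V := by
    intro m n hmn v hv
    obtain ⟨T, hT, hTs⟩ := (hr m).inf
    obtain ⟨t, ht, t', ht', htt⟩ := hT.nontrivial
    obtain ⟨j, hj⟩ := hTs t ht t' ht' htt
    obtain ⟨k0, hk0⟩ : ∃ k, B m j k ≠ 0 := by
      by_contra hcon
      push Not at hcon
      exact hj (by rw [hcon, hcon])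
    let φ : C(K, E) := ⟨fun k => ‖B m j k‖ • v, by fun_prop⟩
    have hφp : φ p = 0 := by
      change ‖B m j p‖ • v = 0
      rw [(hr m).van, norm_zero, zero_smul]
    have h1 : (⟨φ, hφp⟩ : van E p) ∈ F m := by
      rw [hFe m]
      refine ⟨fun k => V m |>.smul_mem _ hv, fun k k' hkk => ?_⟩
      change ‖B m j k‖ • v = ‖B m j k'‖ • v
      rw [hkk j]
    have h2 := hm hmn h1
    rw [hFe n] at h2
    have h3 : ‖B m j k0‖ • v ∈ V n := h2.1 k0
    have h4 : ‖B m j k0‖ ≠ 0 := norm_ne_zero_iff.2 hk0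
    have h5 := (V n).smul_mem (‖B m j k0‖⁻¹) h3
    rwa [smul_smul, inv_mul_cancel₀ h4, one_smul] at h5
  have hFm : Monotone fun n => mem (B n) (V n) := by
    intro m n hmn h hh
    refine ⟨fun k => hVm hmn (hh.1 k), fun k k' hkk => ?_⟩
    let h0 : C(K, E) := h - ContinuousMap.const K (h p)
    have h0p : h0 p = 0 := by simp [h0]
    have h1 : (⟨h0, h0p⟩ : van E p) ∈ F m := by
      rw [hFe m]
      refine ⟨fun k => ?_, fun a b hab => ?_⟩
      · exact (V m).sub_mem (hh.1 k) (hh.1 p)
      · change h a - h p = h b - h p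
        rw [hh.2 a b hab]
    have h2 := hm hmn h1
    rw [hFe n] at h2
    have h3 : h k - h p = h k' - h p := h2.2 k k' hkk
    exact sub_left_inj.1 h3
  let A : ℕ → C(K, E) := fun j => B (Nat.unpair j).1 (Nat.unpair j).2
  have hAp : ∀ n m, A (Nat.pair n m) = B n m := by
    intro n m
    simp [A]
  let W : Submodule ℝ E := (⨆ n, V n).topologicalClosure
  have hWV : ∀ n, V n ≤ W := fun n v hv =>
    Submodule.le_topologicalClosure _ (Submodule.mem_iSup_of_mem n hv)
  have hcl : IsClosed (W : Set E) := Submodule.isClosed_topologicalClosure _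
  have hval : ∀ n k, A n k ∈ W := fun n k => hWV _ ((hr _).val _ k)
  have heq : (⨆ n, F n).topologicalClosure = memJ p A W := by
    apply le_antisymm
    · refine Submodule.topologicalClosure_minimal _ (iSup_le fun n => ?_) (isClosed_memJ hcl)
      rw [hFe n]
      rintro h ⟨h1, h2⟩
      refine ⟨fun k => hWV n (h1 k), fun k k' hk => h2 k k' fun m => ?_⟩
      rw [← hAp n m]
      exact hk _
    · rintro ⟨h, hp⟩ ⟨h1, h2⟩
      refine Metric.mem_closure_iff.2 fun ε hε => ?_
      have hAB : ∀ j, ∃ n, A j ∈ mem (B n) (V n) := fun j =>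
        ⟨_, coord_mem (hr _).val _⟩
      have hv : ∀ k, h k ∈ closure (⋃ n, (V n : Set E)) := by
        intro k
        refine Metric.mem_closure_iff.2 fun δ hδ => ?_
        obtain ⟨u, hu, hd⟩ := Metric.mem_closure_iff.1 (h1 k) δ hδ
        obtain ⟨n, hn⟩ := mem_iSup_mono hVm hu
        exact ⟨u, Set.mem_iUnion.2 ⟨n, hn⟩, hd⟩
      obtain ⟨n, h', hh', hb⟩ := exists_approx hVm hFm hAB h2 hv (half_pos (half_pos (half_pos hε)))
      let h0 : C(K, E) := h' - ContinuousMap.const K (h' p)
      have h0p : h0 p = 0 := by simp [h0]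
      have hp' : h p = 0 := hp
      refine ⟨⟨h0, h0p⟩, ?_, ?_⟩
      · refine Submodule.mem_iSup_of_mem n ?_
        rw [hFe n]
        refine ⟨fun k => (V n).sub_mem (hh'.1 k) (hh'.1 p), fun a b hab => ?_⟩
        change h' a - h' p = h' b - h' p
        rw [hh'.2 a b hab]
      · rw [Subtype.dist_eq, dist_eq_norm]
        change ‖h - h0‖ < ε
        have e : h - h0 = (h - h') + ContinuousMap.const K (h' p) := by
          simp only [h0]
          abel
        rw [e]
        have h3 : ‖ContinuousMap.const K (h' p)‖ ≤ ‖h - h'‖ := by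
          refine (ContinuousMap.norm_le _ (norm_nonneg _)).2 fun k => ?_
          have h4 := (h - h').norm_coe_le_norm p
          rw [ContinuousMap.sub_apply, hp', zero_sub, norm_neg] at h4
          exact h4
        have h5 := norm_add_le (h - h') (ContinuousMap.const K (h' p))
        have hb' : ‖h - h'‖ ≤ 2 * (ε / 2 / 2 / 2) := hb
        linarith
  refine ⟨A, W, ⟨heq, ?_, hcl, hval, ?_, ?_, fun j => (hr _).van _⟩⟩
  · exact isSeparable_closure_iSup fun n => (hr n).sep
  · obtain ⟨v, hv, hv0⟩ := (hr 0).nz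
    exact ⟨v, hWV 0 hv, hv0⟩
  · obtain ⟨T, hT, hTs⟩ := (hr 0).inf
    refine ⟨T, hT, fun t ht t' ht' htt => ?_⟩
    obtain ⟨m, hm'⟩ := hTs t ht t' ht' htt
    exact ⟨Nat.pair 0 m, by rwa [hAp]⟩

/-- The metrizable case. -/
theorem exists_linear_C0_metrizable {K' E' Y : Type*} [TopologicalSpace K'] [LocallyCompactSpace K']
    [MetrizableSpace K'] [Infinite K'] [NormedAddCommGroup E'] [NormedSpace ℝ E'] [Nontrivial E']
    [NormedAddCommGroup Y] [NormedSpace ℝ Y] {f : C₀(K', E') → Y} (hf : IsSphereIso f) :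
    ∃ T : C₀(K', E') ≃ₗᵢ[ℝ] Y, ∀ x, ‖x‖ = 1 → T x = f x := by
  letI := metrizableSpaceMetric K'
  exact C0.exists_linear hf

section Member

variable (A : ℕ → C(K, E)) (V : Submodule ℝ E) (hA : ∀ n k, A n k ∈ V) (p)

/-- Pull back along the projection, in the pointed setting. -/
noncomputable def pull0 : van V (proj A V hA p) →ₗᵢ[ℝ] memJ p A V where
  toFun u := ⟨⟨((pull A V hA u.1 : mem A V) : C(K, E)), by
      change (u.1 (proj A V hA p) : E) = 0
      rw [van_apply u]
      rfl⟩, (pull A V hA u.1).2⟩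
  map_add' u v := by
    refine Subtype.ext (Subtype.ext ?_)
    change ((pull A V hA (u.1 + v.1) : mem A V) : C(K, E)) = _
    rw [map_add]
    rfl
  map_smul' c u := by
    refine Subtype.ext (Subtype.ext ?_)
    change ((pull A V hA (c • u.1) : mem A V) : C(K, E)) = _
    rw [map_smul]
    rfl
  norm_map' u := (pull A V hA).norm_map u.1

theorem pull0_surj : Function.Surjective (pull0 p A V hA) := by
  rintro ⟨⟨h, hp⟩, hm⟩
  obtain ⟨u, hu⟩ := pull_surj A V hA ⟨h, hm⟩
  have hh : ((pull A V hA u : mem A V) : C(K, E)) = h := congrArg Subtype.val hu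
  have hup : u (proj A V hA p) = 0 := by
    apply Subtype.ext
    change ((pull A V hA u : mem A V) : C(K, E)) p = 0
    rw [hh]
    exact hp
  exact ⟨⟨u, hup⟩, Subtype.ext (Subtype.ext hh)⟩

end Member

/-- Members of the rich family extend. -/
theorem Rich0.extends {Y : Type*} [NormedAddCommGroup Y] [NormedSpace ℝ Y]
    {F : Submodule ℝ (van E p)} (hF : Rich0 F) {φ : F → Y} (hφ : IsSphereIso φ) :
    ∃ T : F ≃ₗᵢ[ℝ] Y, ∀ x, ‖x‖ = 1 → T x = φ x := by
  obtain ⟨A, V, hr⟩ := hF
  obtain rfl := hr.eq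
  have hA := hr.val
  obtain ⟨v, hv, hv0⟩ := hr.nz
  haveI : Nontrivial V := ⟨⟨⟨v, hv⟩, 0, fun h => hv0 (congrArg Subtype.val h)⟩⟩
  obtain ⟨T0, hT0, hTs⟩ := hr.inf
  haveI : Infinite (KQ A V hA) := by
    have hinj : Set.InjOn (proj A V hA) T0 := by
      intro t ht t' ht' h
      by_contra hne
      obtain ⟨n, hn⟩ := hTs t ht t' ht' hne
      exact hn (proj_eq_iff A V hA h n)
    have := (Set.infinite_of_injOn_mapsTo hinj (Set.mapsTo_univ _ _) hT0)
    exact Set.infinite_univ_iff.1 this
  set p' : KQ A V hA := proj A V hA p with hp'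
  let L' : Set (KQ A V hA) := {p'}ᶜ
  have hLinf : L'.Infinite := (Set.finite_singleton p').infinite_compl
  haveI : Infinite L' := hLinf.to_subtype
  have hLo : IsOpen L' := isOpen_compl_singleton
  have hi : IsOpenEmbedding (Subtype.val : L' → KQ A V hA) := hLo.isOpenEmbedding_subtypeVal
  have hri : Set.range (Subtype.val : L' → KQ A V hA) = {p'}ᶜ := Subtype.range_coe
  haveI : LocallyCompactSpace L' := hLo.locallyCompactSpace
  let e2 : C₀(L', V) ≃ₗᵢ[ℝ] van V p' := c0Iso hi hri
  let e1 : van V p' ≃ₗᵢ[ℝ] memJ p A V :=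
    LinearIsometryEquiv.ofSurjective (pull0 p A V hA) (pull0_surj p A V hA)
  let e := e2.trans e1
  have hcomp : IsSphereIso (fun u : C₀(L', V) => φ (e u)) := by
    refine ⟨fun u hu => hφ.norm_eq _ (by rw [e.norm_map]; exact hu), fun u w hu hw => ?_,
      fun z hz => ?_⟩
    · rw [hφ.iso _ _ (by rw [e.norm_map]; exact hu) (by rw [e.norm_map]; exact hw)]
      have h5 := e.norm_map (u - w)
      rwa [e.map_sub] at h5
    · obtain ⟨x, hx, hfx⟩ := hφ.surj z hz
      refine ⟨e.symm x, by rw [e.symm.norm_map]; exact hx, ?_⟩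
      simp [hfx]
  obtain ⟨T, hT⟩ := exists_linear_C0_metrizable hcomp
  refine ⟨e.symm.trans T, fun x hx => ?_⟩
  have h1 := hT (e.symm x) (by rw [e.symm.norm_map]; exact hx)
  simpa using h1

/-- The pointed theorem. -/
theorem exists_linear_van [Infinite K] [Nontrivial E] {Y : Type*} [NormedAddCommGroup Y]
    [NormedSpace ℝ Y] {f : van E p → Y} (hf : IsSphereIso f) :
    ∃ T : van E p ≃ₗᵢ[ℝ] Y, ∀ x, ‖x‖ = 1 → T x = f x :=
  extends_of_rich hf Rich0 rich0_cofinal (fun F hm hP _ => rich0_iSup F hm hP)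
    (fun _ hF _ _ _ _ _ _ hφ => hF.extends hφ)

end Pointed

/-- **Main theorem.** Every surjective sphere isometry of `C₀(L, E)`, `L` an infinite locally compact
Hausdorff space, `E` a nonzero real normed space, is the restriction of a surjective linear isometry. -/
theorem exists_linear_C0_hausdorff {L E Y : Type*} [TopologicalSpace L] [LocallyCompactSpace L] [T2Space L]
    [Infinite L] [NormedAddCommGroup E] [NormedSpace ℝ E] [Nontrivial E] [NormedAddCommGroup Y]
    [NormedSpace ℝ Y] {f : C₀(L, E) → Y} (hf : IsSphereIso f) :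
    ∃ T : C₀(L, E) ≃ₗᵢ[ℝ] Y, ∀ x, ‖x‖ = 1 → T x = f x := by
  haveI : Infinite (OnePoint L) := Infinite.of_injective _ OnePoint.coe_injective
  have hr : Set.range ((↑) : L → OnePoint L) = {OnePoint.infty}ᶜ := by
    rw [← OnePoint.compl_range_coe, compl_compl]
  let e : C₀(L, E) ≃ₗᵢ[ℝ] van E (OnePoint.infty : OnePoint L) := c0Iso OnePoint.isOpenEmbedding_coe hr
  have hcomp : IsSphereIso (fun u : van E (OnePoint.infty : OnePoint L) => f (e.symm u)) := by
    refine ⟨fun u hu => hf.norm_eq _ (by rw [e.symm.norm_map]; exact hu), fun u w hu hw => ?_,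
      fun z hz => ?_⟩
    · rw [hf.iso _ _ (by rw [e.symm.norm_map]; exact hu) (by rw [e.symm.norm_map]; exact hw), ← map_sub,
        e.symm.norm_map]
    · obtain ⟨x, hx, hfx⟩ := hf.surj z hz
      refine ⟨e x, by rw [e.norm_map]; exact hx, ?_⟩
      simp [hfx]
  obtain ⟨T, hT⟩ := exists_linear_van hcomp
  refine ⟨e.trans T, fun x hx => ?_⟩
  have h1 := hT (e x) (by rw [e.norm_map]; exact hx)
  simpa using h1

universe u v

variable {X : Type u} {Y : Type v} [NormedAddCommGroup X] [NormedSpace ℝ X] [NormedAddCommGroup Y]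
  [NormedSpace ℝ Y]

/-- Every infinite locally compact metric space is an instance. -/
theorem isVectorC0H_of_isVectorC0 (hX : C0.IsVectorC0 X) : C0.IsVectorC0H X := by
  obtain ⟨K, E, _, _, _, _, _, _, he⟩ := hX
  exact ⟨K, E, inferInstance, inferInstance, inferInstance, inferInstance, inferInstance, inferInstance,
    inferInstance, he⟩

/-- Extension if the source is a `C₀(L, E)`. -/
theorem extends_of_isVectorC0H (hX : C0.IsVectorC0H X) {f : X → Y} (hf : IsSphereIso f) :
    ∃ T : X ≃ₗᵢ[ℝ] Y, ∀ x, ‖x‖ = 1 → T x = f x := by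
  obtain ⟨K, E, _, _, _, _, _, _, _, ⟨e⟩⟩ := hX
  have hF : IsSphereIso (fun p : C₀(K, E) => f (e.symm p)) := by
    refine ⟨fun p hp => hf.norm_eq _ (by rw [e.symm.norm_map]; exact hp), fun p q hp hq => ?_,
      fun z hz => ?_⟩
    · rw [hf.iso _ _ (by rw [e.symm.norm_map]; exact hp) (by rw [e.symm.norm_map]; exact hq),
        ← map_sub, e.symm.norm_map]
    · obtain ⟨x, hx, hfx⟩ := hf.surj z hz
      refine ⟨e x, by rw [e.norm_map]; exact hx, ?_⟩
      simp [hfx]
  obtain ⟨T, hT⟩ := exists_linear_C0_hausdorff hF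
  refine ⟨e.trans T, fun x hx => ?_⟩
  have h1 := hT (e x) (by rw [e.norm_map]; exact hx)
  simpa using h1

/-- Map of the unit spheres, source version. -/
theorem extends_sphere_source_C0H (f : sphere (0 : X) 1 → sphere (0 : Y) 1) (hf : Isometry f)
    (hs : Function.Surjective f) (hX : C0.IsVectorC0H X) :
    ∃ T : X ≃ₗᵢ[ℝ] Y, ∀ x : sphere (0 : X) 1, T x = f x := by
  obtain ⟨g, hg, hgf⟩ := LSum.exists_ambient f hf hs
  obtain ⟨T, hT⟩ := extends_of_isVectorC0H hX hg
  exact ⟨T, fun x => by rw [hT x (by simp), hgf]⟩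

/-- Map of the unit spheres, target version. -/
theorem extends_sphere_target_C0H (f : sphere (0 : X) 1 → sphere (0 : Y) 1) (hf : Isometry f)
    (hs : Function.Surjective f) (hY : C0.IsVectorC0H Y) :
    ∃ T : X ≃ₗᵢ[ℝ] Y, ∀ x : sphere (0 : X) 1, T x = f x := by
  obtain ⟨h, hh, hhs, htr⟩ := LSum.exists_inverse f hf hs
  exact htr (extends_sphere_source_C0H h hh hhs hY)

end Vale.Agent.Lib.P084.SepRed
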